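import Vale.Agent.P235.H156.Extract

/-!
# Grid or clique (G7a): the clique minor
-/

namespace Vale.Agent.P235.H156

open SimpleGraph Vale.Agent.P235.H134

variable {V : Type}

/-- a connected set together with pieces attached to it -/
theorem connected_attach {G : SimpleGraph V} {S T : Set V} (hS : (G.induce S).Connected)
    (hST : S ⊆ T) (h : ∀ v (hv : v ∈ T), ∃ s, ∃ hs : s ∈ S,
      (G.induce T).Reachable ⟨v, hv⟩ ⟨s, hST hs⟩) : (G.induce T).Connected := by
  have hne : Nonempty T := by
    obtain ⟨v⟩ := hS.nonempty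
    exact ⟨⟨v.1, hST v.2⟩⟩
  refine ⟨?_⟩
  intro u v
  obtain ⟨s, hs, h1⟩ := h u.1 u.2
  obtain ⟨s', hs', h2⟩ := h v.1 v.2
  have h3 : (G.induce T).Reachable ⟨s, hST hs⟩ ⟨s', hST hs'⟩ := by
    have := hS.preconnected ⟨s, hs⟩ ⟨s', hs'⟩
    exact this.map (SimpleGraph.induceHomOfLE G hST).toHom
  exact (h1.trans h3).trans h2.symm

theorem clique : CliqueStmt := by
  classical
  intro V G m C S A hSC hSS hS hAS p hp hC hd
  refine ⟨fun i => S i ∪ {v | ∃ j, i < j ∧ ∃ t, 0 < t ∧ t < (p i j).len ∧ (p i j).f t = v},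
    ?_, ?_, ?_⟩
  · intro i
    refine connected_attach (hS i) Set.subset_union_left ?_
    intro v hv
    rcases hv with hv | ⟨j, hij, t, ht0, ht, hv⟩
    · exact ⟨v, hv, SimpleGraph.Reachable.refl _⟩
    · subst hv
      refine ⟨(p i j).f 0, hAS i (hp i j hij).1, ?_⟩
      -- induction along the path
      have hmem : ∀ t, t < (p i j).len → (p i j).f t ∈
          S i ∪ {v | ∃ j, i < j ∧ ∃ t, 0 < t ∧ t < (p i j).len ∧ (p i j).f t = v} := by
        intro t ht
        rcases Nat.eq_zero_or_pos t with h | h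
        · subst h
          exact Or.inl (hAS i (hp i j hij).1)
        · exact Or.inr ⟨j, hij, t, h, ht, rfl⟩
      have key : ∀ t (ht : t < (p i j).len), (G.induce (S i ∪ {v | ∃ j, i < j ∧
          ∃ t, 0 < t ∧ t < (p i j).len ∧ (p i j).f t = v})).Reachable
          ⟨(p i j).f t, hmem t ht⟩ ⟨(p i j).f 0, hmem 0 (by omega)⟩ := by
        intro t
        induction t with
        | zero => intro ht; exact SimpleGraph.Reachable.refl _
        | succ t ih =>
          intro ht
          refine SimpleGraph.Reachable.trans ?_ (ih (by omega))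
          refine SimpleGraph.Adj.reachable ?_
          rw [SimpleGraph.comap_adj]
          exact ((p i j).adj t (by omega)).symm
      exact key t ht
  · -- disjointness
    have hlen : ∀ i j, i < j → 0 < (p i j).len := by
      intro i j hij
      rcases Nat.eq_zero_or_pos (p i j).len with h0 | h0
      · obtain ⟨h1, h2, -, -⟩ := hp i j hij
        rw [h0] at h2
        exact absurd (hAS j h2) (Set.disjoint_left.mp (hSS i j hij.ne) (hAS i h1))
      · exact h0
    intro i i' hne
    rw [Set.disjoint_left]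
    intro v hv hv'
    rcases hv with hv | ⟨j, hij, t, ht0, ht, hv⟩
    · rcases hv' with hv' | ⟨j', hij', t', ht0', ht', hv'⟩
      · exact Set.disjoint_left.mp (hSS i i' hne) hv hv'
      · subst hv'
        exact Set.disjoint_left.mp (hSC i) hv (hC i' j' hij' t' ht0' ht')
    · rcases hv' with hv' | ⟨j', hij', t', ht0', ht', hv'⟩
      · subst hv
        exact Set.disjoint_left.mp (hSC i') hv' (hC i j hij t ht0 ht)
      · refine Set.disjoint_left.mp (hd i j i' j' hij hij' ?_) ⟨t, ht.le, hv⟩ ⟨t', ht'.le, hv'⟩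
        intro h
        exact hne (congrArg Prod.fst h)
  · -- adjacency
    have main : ∀ i j, i < j → ∃ x ∈ S i ∪ {v | ∃ j, i < j ∧ ∃ t, 0 < t ∧ t < (p i j).len ∧
        (p i j).f t = v}, ∃ y ∈ S j, G.Adj x y := by
      intro i j hij
      obtain ⟨h1, h2, -, -⟩ := hp i j hij
      rcases Nat.eq_zero_or_pos (p i j).len with h0 | h0
      · rw [h0] at h2
        exact absurd (hAS j h2) (Set.disjoint_left.mp (hSS i j hij.ne) (hAS i h1))
      · have hadj := (p i j).adj ((p i j).len - 1) (by omega)
        rw [Nat.sub_add_cancel h0] at hadj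
        refine ⟨_, ?_, _, hAS j h2, hadj⟩
        rcases Nat.eq_zero_or_pos ((p i j).len - 1) with h3 | h3
        · rw [h3]; exact Or.inl (hAS i h1)
        · exact Or.inr ⟨j, hij, _, h3, by omega, rfl⟩
    intro i j hij
    rw [SimpleGraph.top_adj] at hij
    rcases lt_or_gt_of_ne hij with h | h
    · obtain ⟨x, hx, y, hy, hxy⟩ := main i j h
      exact ⟨x, hx, y, Or.inl hy, hxy⟩
    · obtain ⟨x, hx, y, hy, hxy⟩ := main j i h
      exact ⟨y, Or.inl hy, x, hx, hxy.symm⟩

/-- (G7a) over the remaining rows. -/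
theorem gridOrClique (hBip : BipStmt) (hCore : CoreStmt) (hGrid : GridStmt) : GridOrCliqueStmt :=
  gridOrClique_of hBip hCore extract clique hGrid

end Vale.Agent.P235.H156
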