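import Vale.Agent.P235.H134.Grid.Stmts
import Mathlib.Combinatorics.Pigeonhole

/-!
# Grid or clique (G7a): disjoint paths for all pairs, or segments

The induction over the set of pairs, on top of the core statement `CoreStmt`, the bipartite
statement `BipStmt` and the extraction statement `ExtractStmt` (a minimal graph containing the given
paths and `M` disjoint `A`–`B` paths).
-/

namespace Vale.Agent.P235.H156

open SimpleGraph Vale.Agent.P235.H134

/-- A system of disjoint `A`–`B` paths with inner vertices in `C` and all vertices in `Z`. -/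
def Sys {V : Type} {G : SimpleGraph V} (A B C Z : Set V) {ι : Type} (P : ι → Pth G) : Prop :=
  IsLinkage A B P ∧ (∀ a t, 0 < t → t < (P a).len → (P a).f t ∈ C) ∧ ∀ a, (P a).verts ⊆ Z

/-- The extraction statement: minimality relative to the paths `Q`. -/
def ExtractStmt : Prop :=
  ∀ (V : Type) [Finite V] (G : SimpleGraph V) (A B C : Set V), Disjoint A B →
    ∀ (M : ℕ) (κ : Type) (Q : κ → Pth G),
    (∀ x y, x ≠ y → Disjoint (Q x).verts (Q y).verts) →
    (∀ x t, 0 < t → t < (Q x).len → (Q x).f t ∈ C) →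
    ∀ (P : Fin M → Pth G), IsLinkage A B P → (∀ a t, 0 < t → t < (P a).len → (P a).f t ∈ C) →
    ∃ L : Fin M → Pth G, IsLinkage A B L ∧ (∀ a t, 0 < t → t < (L a).len → (L a).f t ∈ C) ∧
      (∀ a, (L a).verts ⊆ (⋃ x, (Q x).verts) ∪ ⋃ b, (P b).verts) ∧
      ∀ a t, t < (L a).len → (∀ x, ¬ (Q x).EdgeOf ((L a).f t) ((L a).f (t + 1))) →
        ¬ Linked (((⨆ x, (Q x).graph) ⊔ ⨆ a, (L a).graph).deleteEdges
          {s((L a).f t, (L a).f (t + 1))}) A B M

variable {V : Type}

theorem Sys.comp {G : SimpleGraph V} {A B C Z : Set V} {ι ι' : Type} {P : ι → Pth G}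
    (h : Sys A B C Z P) (g : ι' → ι) (hg : Function.Injective g) : Sys A B C Z (fun a => P (g a)) :=
  ⟨⟨fun i => h.1.1 (g i), fun i j hij => h.1.2 (g i) (g j) (fun e => hij (hg e))⟩,
    fun a => h.2.1 (g a), fun a => h.2.2 (g a)⟩

/-- One step: segments, or one path of `Q` avoided by `n` paths of every other (new) system. -/
theorem step (hBip : BipStmt) (hCore : CoreStmt) (hEx : ExtractStmt) [Finite V]
    (G : SimpleGraph V) {ι : Type} (R : Finset ι) (A B : ι → Set V) (C Z : Set V)
    (hAB : ∀ e ∈ R, Disjoint (A e) (B e)) (q d c n : ℕ) (hq : 1 ≤ q) (hd : 1 ≤ d) (hn : 1 ≤ n)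
    (hc : 2 * (R.card + 1) * d * d + 4 * (q + 1) ≤ c)
    (Q : Fin (c * (c * n)) → Pth G)
    (hQd : ∀ x y, x ≠ y → Disjoint (Q x).verts (Q y).verts)
    (hQC : ∀ x t, 0 < t → t < (Q x).len → (Q x).f t ∈ C) (hQZ : ∀ x, (Q x).verts ⊆ Z)
    (P : ι → Fin (c * n) → Pth G) (hP : ∀ e ∈ R, Sys (A e) (B e) C Z (P e)) :
    Segments G q d ∨ ∃ (x : Fin (c * (c * n))) (P' : ι → Fin n → Pth G),
      ∀ e ∈ R, Sys (A e) (B e) C (Z \ (Q x).verts) (P' e) := by
  classical
  have hc0 : 0 < c := lt_of_lt_of_le (by omega) hc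
  have hcn : 0 < c * n := Nat.mul_pos hc0 hn
  have hccn : 0 < c * (c * n) := Nat.mul_pos hc0 hcn
  -- the new systems
  have hex : ∀ e : ι, ∃ L : Fin (c * n) → Pth G, e ∈ R →
      IsLinkage (A e) (B e) L ∧ (∀ a t, 0 < t → t < (L a).len → (L a).f t ∈ C) ∧
      (∀ a, (L a).verts ⊆ Z) ∧
      ∀ a t, t < (L a).len → (∀ x, ¬ (Q x).EdgeOf ((L a).f t) ((L a).f (t + 1))) →
        ¬ Linked (((⨆ x, (Q x).graph) ⊔ ⨆ a, (L a).graph).deleteEdges
          {s((L a).f t, (L a).f (t + 1))}) (A e) (B e) (c * n) := by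
    intro e
    by_cases he : e ∈ R
    · obtain ⟨h1, h2, h3⟩ := hP e he
      obtain ⟨L, hL1, hL2, hL3, hL4⟩ := hEx V G (A e) (B e) C (hAB e he) (c * n) _ Q hQd hQC
        (P e) h1 h2
      refine ⟨L, fun _ => ⟨hL1, hL2, fun a => ?_, hL4⟩⟩
      refine (hL3 a).trans (Set.union_subset (Set.iUnion_subset hQZ) (Set.iUnion_subset h3))
    · exact ⟨P e, fun h => absurd h he⟩
  choose L hL using hex
  by_cases hA : ∃ x : Fin (c * (c * n)), ∀ e ∈ R,
      n ≤ (Finset.univ.filter fun a : Fin (c * n) => Disjoint (Q x).verts (L e a).verts).card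
  · right
    obtain ⟨x, hx⟩ := hA
    have hinj : ∀ e : ι, ∃ g : Fin n → Fin (c * n), e ∈ R → Function.Injective g ∧
        ∀ i, Disjoint (Q x).verts (L e (g i)).verts := by
      intro e
      by_cases he : e ∈ R
      · obtain ⟨T, hT1, hT2⟩ := Finset.exists_subset_card_eq (hx e he)
        refine ⟨fun i => (T.orderEmbOfFin hT2 i : Fin (c * n)), fun _ => ⟨?_, ?_⟩⟩
        · exact (T.orderEmbOfFin hT2).injective
        · intro i
          have := hT1 (T.orderEmbOfFin_mem hT2 i)
          exact (Finset.mem_filter.mp this).2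
      · exact ⟨fun _ => ⟨0, hcn⟩, fun h => absurd h he⟩
    choose g hg using hinj
    refine ⟨x, fun e i => L e (g e i), fun e he => ?_⟩
    obtain ⟨hg1, hg2⟩ := hg e he
    obtain ⟨h1, h2, h3, -⟩ := hL e he
    refine ⟨⟨fun i => h1.1 _, fun i j hij => h1.2 _ _ (fun h => hij (hg1 h))⟩,
      fun a => h2 _, fun a => ?_⟩
    intro v hv
    exact ⟨h3 _ hv, fun hv' => Set.disjoint_left.mp (hg2 a) hv' hv⟩
  · left
    push Not at hA
    choose e heR he using hA
    have hRne : R.Nonempty := ⟨_, heR ⟨0, hccn⟩⟩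
    -- pigeonhole
    have hpig : R.card * (2 * (d * d) * (c * n)) ≤ (Finset.univ : Finset (Fin (c * (c * n)))).card := by
      rw [Finset.card_univ, Fintype.card_fin]
      have : R.card * (2 * (d * d)) ≤ c := by nlinarith [Nat.zero_le (d * d)]
      calc R.card * (2 * (d * d) * (c * n)) = (R.card * (2 * (d * d))) * (c * n) := by ring
        _ ≤ c * (c * n) := Nat.mul_le_mul_right _ this
    obtain ⟨e0, he0, hcard⟩ := Finset.exists_le_card_fiber_of_mul_le_card_of_maps_to
      (fun a _ => heR a) hRne hpig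
    obtain ⟨h1, h2, h3, h4⟩ := hL e0 he0
    -- the bipartite lemma
    obtain ⟨H, U, hH, hU, hHU⟩ := hBip (q + 1) (c * n) c {x : Fin (c * (c * n)) // e x = e0}
      (Fin (c * n)) (fun x a => Disjoint (Q x.1).verts (L e0 a).verts)
      (Fintype.card_fin _) (by nlinarith) (by nlinarith [Nat.zero_le ((R.card + 1) * d * d)]) hc0
      (by
        intro x
        have := he x.1
        rw [x.2] at this
        have h5 : Set.ncard {b : Fin (c * n) | Disjoint (Q x.1).verts (L e0 b).verts} =
            (Finset.univ.filter fun a : Fin (c * n) =>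
              Disjoint (Q x.1).verts (L e0 a).verts).card := by
          rw [← Set.ncard_coe_finset]
          simp
        rw [h5]
        exact Nat.mul_le_mul_left _ this.le)
    have hcardα : Fintype.card {x : Fin (c * (c * n)) // e x = e0} =
        (Finset.univ.filter fun x : Fin (c * (c * n)) => e x = e0).card := by
      rw [Fintype.card_subtype]
    refine hCore q d (c * n) hq hd V G (A e0) (B e0) (L e0) (Fin (c * (c * n))) Q h1 hQd h4
      (U.map (Function.Embedding.subtype _)) H ?_ hH.ge ?_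
    · rw [Finset.card_map]
      rw [hcardα] at hU
      have : 2 * (d * d) * (c * n) ≤ 2 * U.card := hcard.trans hU
      have h7 : 2 * (d * d * (c * n)) ≤ 2 * U.card := by
        calc 2 * (d * d * (c * n)) = 2 * (d * d) * (c * n) := by ring
          _ ≤ _ := this
      exact Nat.le_of_mul_le_mul_left h7 (by norm_num)
    · intro x hx a ha
      obtain ⟨y, hy, rfl⟩ := Finset.mem_map.mp hx
      have := hHU y hy a ha
      rw [Set.not_disjoint_iff_nonempty_inter] at this
      exact this

/-- The claim: segments, or one path for every pair, pairwise disjoint. -/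
theorem claim (hBip : BipStmt) (hCore : CoreStmt) (hEx : ExtractStmt) [Finite V]
    (G : SimpleGraph V) {ι : Type} (A B : ι → Set V) (C : Set V)
    (hAB : ∀ e, Disjoint (A e) (B e)) (q d c s : ℕ) (hq : 1 ≤ q) (hd : 1 ≤ d)
    (hc : 2 * (s + 1) * d * d + 4 * (q + 1) ≤ c) (R : Finset ι) :
    R.card ≤ s → ∀ (Z : Set V) (N : ℕ), (c * c) ^ R.card ≤ N → ∀ P : ι → Fin N → Pth G,
      (∀ e ∈ R, Sys (A e) (B e) C Z (P e)) →
      Segments G q d ∨ ∃ p : ι → Pth G,
        (∀ e ∈ R, (p e).Joins (A e) (B e) ∧ (∀ t, 0 < t → t < (p e).len → (p e).f t ∈ C) ∧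
          (p e).verts ⊆ Z) ∧
        ∀ e ∈ R, ∀ e' ∈ R, e ≠ e' → Disjoint (p e).verts (p e').verts := by
  classical
  have hc0 : 0 < c := lt_of_lt_of_le (by omega) hc
  induction R using Finset.induction_on with
  | empty =>
    intro _ Z N hN P _
    right
    have hN0 : 0 < N := by
      rw [Finset.card_empty, pow_zero] at hN
      omega
    exact ⟨fun e => P e ⟨0, hN0⟩, fun e he => absurd he (Finset.notMem_empty e),
      fun e he => absurd he (Finset.notMem_empty e)⟩
  | insert e0 R he0 ih =>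
    intro hR Z N hN P hP
    rw [Finset.card_insert_of_notMem he0] at hR hN
    obtain ⟨n, hn⟩ : ∃ n, n = (c * c) ^ R.card := ⟨_, rfl⟩
    have hn1 : 1 ≤ n := by
      rw [hn]
      exact Nat.one_le_iff_ne_zero.mpr (pow_ne_zero _ (Nat.mul_ne_zero hc0.ne' hc0.ne'))
    have hN' : c * (c * n) ≤ N := by
      rw [pow_succ, ← hn] at hN
      calc c * (c * n) = n * (c * c) := by ring
        _ ≤ N := hN
    have hN'' : c * n ≤ N := le_trans (Nat.le_mul_of_pos_left _ hc0) hN'
    have hQ := (hP e0 (Finset.mem_insert_self _ _)).comp (Fin.castLE hN') (Fin.castLE_injective hN')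
    obtain ⟨hQ1, hQ2, hQ3⟩ := hQ
    rcases step hBip hCore hEx G R A B C Z (fun e _ => hAB e) q d c n hq hd hn1
      (le_trans (by gcongr; omega) hc) (fun a => P e0 (Fin.castLE hN' a)) hQ1.2 hQ2 hQ3
      (fun e a => P e (Fin.castLE hN'' a))
      (fun e he => (hP e (Finset.mem_insert_of_mem he)).comp _ (Fin.castLE_injective hN'')) with
      h | ⟨x, P', hP'⟩
    · exact Or.inl h
    · rcases ih (by omega) (Z \ (P e0 (Fin.castLE hN' x)).verts) n hn.ge P' hP' with
        h | ⟨p, hp1, hp2⟩
      · exact Or.inl h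
      · right
        refine ⟨fun e => if e = e0 then P e0 (Fin.castLE hN' x) else p e, ?_, ?_⟩
        · intro e he
          by_cases hee : e = e0
          · subst hee
            simp only [if_true]
            exact ⟨hQ1.1 x, hQ2 x, hQ3 x⟩
          · simp only [if_neg hee]
            have heR := Finset.mem_of_mem_insert_of_ne he hee
            obtain ⟨h1, h2, h3⟩ := hp1 e heR
            exact ⟨h1, h2, h3.trans Set.sdiff_subset⟩
        · have key : ∀ e ∈ R, Disjoint (P e0 (Fin.castLE hN' x)).verts (p e).verts := by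
            intro e he
            obtain ⟨-, -, h3⟩ := hp1 e he
            rw [Set.disjoint_left]
            intro v hv hv'
            exact (h3 hv').2 hv
          intro e he e' he' hne
          by_cases hee : e = e0
          · have hee' : e' ≠ e0 := fun h => hne (hee.trans h.symm)
            simp only [if_pos hee, if_neg hee']
            exact key e' (Finset.mem_of_mem_insert_of_ne he' hee')
          · by_cases hee' : e' = e0
            · simp only [if_neg hee, if_pos hee']
              exact (key e (Finset.mem_of_mem_insert_of_ne he hee)).symm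
            · simp only [if_neg hee, if_neg hee']
              exact hp2 e (Finset.mem_of_mem_insert_of_ne he hee) e'
                (Finset.mem_of_mem_insert_of_ne he' hee') hne

/-- The clique minor from disjoint connected sets and pairwise disjoint paths. -/
def CliqueStmt : Prop :=
  ∀ (V : Type) (G : SimpleGraph V) (m : ℕ) (C : Set V) (S A : Fin m → Set V),
    (∀ i, Disjoint (S i) C) → (∀ i j, i ≠ j → Disjoint (S i) (S j)) →
    (∀ i, (G.induce (S i)).Connected) → (∀ i, A i ⊆ S i) →
    ∀ (p : Fin m → Fin m → Pth G), (∀ i j, i < j → (p i j).Joins (A i) (A j)) →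
    (∀ i j, i < j → ∀ t, 0 < t → t < (p i j).len → (p i j).f t ∈ C) →
    (∀ i j i' j', i < j → i' < j' → (i, j) ≠ (i', j') →
      Disjoint (p i j).verts (p i' j').verts) →
    IsMinor (⊤ : SimpleGraph (Fin m)) G

/-- the path with one vertex -/
def triv (G : SimpleGraph V) (v : V) : Pth G where
  len := 0
  f := fun _ => v
  adj := fun i hi => absurd hi (Nat.not_lt_zero i)
  inj := fun i hi j hj _ => by omega

theorem gridOrClique_of (hBip : BipStmt) (hCore : CoreStmt) (hEx : ExtractStmt)
    (hCl : CliqueStmt) (hGrid : GridStmt) : GridOrCliqueStmt := by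
  classical
  intro r m hr
  obtain ⟨q, hqd⟩ : ∃ q, q = r * (r - 1) := ⟨_, rfl⟩
  obtain ⟨d, hdd⟩ : ∃ d, d = r * r * (r * (r - 1)) ^ r := ⟨_, rfl⟩
  have hq : 1 ≤ q := by
    rw [hqd]
    exact Nat.mul_pos (by omega) (by omega)
  have hd : 1 ≤ d := by
    rw [hdd, ← hqd]
    exact Nat.mul_pos (Nat.mul_pos (by omega) (by omega)) (pow_pos hq r)
  obtain ⟨s, hs⟩ : ∃ s, s = Fintype.card {e : Fin m × Fin m // e.1 < e.2} := ⟨_, rfl⟩
  obtain ⟨c, hc⟩ : ∃ c, c = 2 * (s + 1) * d * d + 4 * (q + 1) := ⟨_, rfl⟩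
  have hc0 : 0 < c := by rw [hc]; positivity
  refine ⟨(c * c) ^ s, Nat.one_le_iff_ne_zero.mpr
    (pow_ne_zero _ (Nat.mul_ne_zero hc0.ne' hc0.ne')), ?_⟩
  intro V _ G hM
  obtain ⟨C, S, A, hSC, hSS, hSc, hAS, hP⟩ := hM
  choose P hP1 hP2 using hP
  have hAA : ∀ i j, i ≠ j → Disjoint (A i) (A j) := fun i j hij =>
    (hSS i j hij).mono (hAS i) (hAS j)
  rcases claim hBip hCore hEx G (ι := {e : Fin m × Fin m // e.1 < e.2}) (fun e => A e.1.1)
    (fun e => A e.1.2) C (fun e => hAA _ _ e.2.ne) q d c s hq hd hc.ge Finset.univ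
    (by rw [hs, Finset.card_univ]) Set.univ ((c * c) ^ s)
    (by rw [hs, Finset.card_univ]) (fun e => P e.1.1 e.1.2 e.2.ne)
    (fun e _ => ⟨hP1 e.1.1 e.1.2 e.2.ne, hP2 e.1.1 e.1.2 e.2.ne, fun a => Set.subset_univ _⟩) with
    h | ⟨p, hp1, hp2⟩
  · left
    rw [hqd] at h
    exact hGrid r hr V G d hdd.ge h
  · right
    have hne : ∀ i, ∃ v : V, v ∈ S i := fun i => by
      obtain ⟨v⟩ := (hSc i).nonempty
      exact ⟨v.1, v.2⟩
    choose v hv using hne
    refine hCl V G m C S A hSC hSS hSc hAS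
      (fun i j => if h : i < j then p ⟨(i, j), h⟩ else triv G (v i)) ?_ ?_ ?_
    · intro i j hij
      rw [dif_pos hij]
      exact (hp1 ⟨(i, j), hij⟩ (Finset.mem_univ _)).1
    · intro i j hij
      rw [dif_pos hij]
      exact (hp1 ⟨(i, j), hij⟩ (Finset.mem_univ _)).2.1
    · intro i j i' j' hij hij' hne
      rw [dif_pos hij, dif_pos hij']
      exact hp2 _ (Finset.mem_univ _) _ (Finset.mem_univ _)
        (fun h => hne (congrArg Subtype.val h))

end Vale.Agent.P235.H156
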