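import Vale.Agent.P235.H156.Claim

/-!
# Grid or clique (G7a): the minimal graph containing the given paths and `M` disjoint paths
-/

namespace Vale.Agent.P235.H156

open SimpleGraph Vale.Agent.P235.H134

variable {V : Type}

/-- Transport a path to a graph containing its edges. -/
def lift {G G' : SimpleGraph V} (P : Pth G)
    (h : ∀ i < P.len, G'.Adj (P.f i) (P.f (i + 1))) : Pth G' where
  len := P.len
  f := P.f
  adj := h
  inj := P.inj

theorem linkage_lift {G G' : SimpleGraph V} {A B : Set V} {ι : Type} {P : ι → Pth G}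
    (hP : IsLinkage A B P) (h : ∀ a, ∀ i < (P a).len, G'.Adj ((P a).f i) ((P a).f (i + 1))) :
    IsLinkage A B (fun a => lift (P a) (h a)) :=
  ⟨fun a => hP.1 a, fun a b hab => hP.2 a b hab⟩

theorem linked_mono {G G' : SimpleGraph V} (hG : G ≤ G') {A B : Set V} {k : ℕ}
    (h : Linked G A B k) : Linked G' A B k := by
  obtain ⟨P, hP⟩ := h
  exact ⟨_, linkage_lift hP fun a i hi => hG ((P a).adj i hi)⟩

theorem graph_le {G : SimpleGraph V} (P : Pth G) : P.graph ≤ G := by
  intro u v h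
  obtain ⟨i, hi, h | h⟩ := h
  · rw [← h.1, ← h.2]; exact P.adj i hi
  · rw [← h.1, ← h.2]; exact (P.adj i hi).symm

theorem extract : ExtractStmt := by
  classical
  intro V _ G A B C hAB M κ Q hQd hQC P hP hPC
  obtain ⟨K, hK⟩ : ∃ K : SimpleGraph V, K = ⨆ x, (Q x).graph := ⟨_, rfl⟩
  obtain ⟨H, hH⟩ : ∃ H : SimpleGraph V, H = ⨆ b, (P b).graph := ⟨_, rfl⟩
  have hKG : K ≤ G := by rw [hK]; exact iSup_le fun x => graph_le _
  have hHG : H ≤ G := by rw [hH]; exact iSup_le fun x => graph_le _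
  have hKadj : ∀ u v, K.Adj u v ↔ ∃ x, (Q x).EdgeOf u v := by
    intro u v
    rw [hK, SimpleGraph.iSup_adj]
    exact Iff.rfl
  have hHadj : ∀ u v, H.Adj u v ↔ ∃ x, (P x).EdgeOf u v := by
    intro u v
    rw [hH, SimpleGraph.iSup_adj]
    exact Iff.rfl
  have hne : (K ⊔ H) ∈ {D : SimpleGraph V | K ≤ D ∧ D ≤ K ⊔ H ∧ Linked D A B M} := by
    refine ⟨le_sup_left, le_refl _, _, linkage_lift hP fun a i hi => ?_⟩
    rw [SimpleGraph.sup_adj]
    right
    rw [hHadj]
    exact ⟨a, i, hi, Or.inl ⟨rfl, rfl⟩⟩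
  obtain ⟨D, hD⟩ := (Set.toFinite
    {D : SimpleGraph V | K ≤ D ∧ D ≤ K ⊔ H ∧ Linked D A B M}).exists_minimal ⟨_, hne⟩
  obtain ⟨⟨hKD, hDH, L0, hL0⟩, hmin⟩ := hD
  have hDG : D ≤ G := hDH.trans (sup_le hKG hHG)
  have hL := linkage_lift hL0 (fun a i hi => hDG ((L0 a).adj i hi))
  -- edges at a vertex outside `A`, `B`, `C`
  have hHv : ∀ v w, H.Adj v w → v ∉ A → v ∉ B → v ∈ C := by
    intro v w h hA hB
    rw [hHadj] at h
    obtain ⟨x, i, hi, h⟩ := h
    obtain ⟨hj1, hj2, -, -⟩ := hP.1 x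
    rcases h with ⟨h1, -⟩ | ⟨-, h1⟩
    · rcases Nat.eq_zero_or_pos i with h0 | h0
      · subst h0
        exact absurd (h1 ▸ hj1) hA
      · exact h1 ▸ hPC x i h0 hi
    · rcases Nat.lt_or_ge (i + 1) (P x).len with h0 | h0
      · exact h1 ▸ hPC x (i + 1) (Nat.succ_pos i) h0
      · have h2 : i + 1 = (P x).len := by omega
        rw [h2] at h1
        exact absurd (h1 ▸ hj2) hB
  have hKv : ∀ v w w', K.Adj v w → K.Adj v w' → w ≠ w' → v ∈ C := by
    intro v w w' h h' hne
    rw [hKadj] at h h'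
    obtain ⟨x, i, hi, h⟩ := h
    obtain ⟨x', i', hi', h'⟩ := h'
    have hv : v ∈ (Q x).verts := by
      rcases h with h | h
      · exact ⟨i, hi.le, h.1⟩
      · exact ⟨i + 1, hi, h.2⟩
    have hv' : v ∈ (Q x').verts := by
      rcases h' with h | h
      · exact ⟨i', hi'.le, h.1⟩
      · exact ⟨i' + 1, hi', h.2⟩
    have hxx : x = x' := by
      by_contra hxx
      exact Set.disjoint_left.mp (hQd x x' hxx) hv hv'
    subst hxx
    rcases h with ⟨h1, h2⟩ | ⟨h1, h2⟩ <;> rcases h' with ⟨h3, h4⟩ | ⟨h3, h4⟩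
    · have := (Q x).inj i hi.le i' hi'.le (h1.trans h3.symm)
      subst this
      exact absurd (h2.symm.trans h4) hne
    · have := (Q x).inj i hi.le (i' + 1) hi' (h1.trans h4.symm)
      rw [← h1]
      exact hQC x i (by omega) hi
    · have := (Q x).inj (i + 1) hi i' hi'.le (h2.trans h3.symm)
      rw [← h3]
      exact hQC x i' (by omega) hi'
    · have := (Q x).inj (i + 1) hi (i' + 1) hi' (h2.trans h4.symm)
      have : i = i' := by omega
      subst this
      exact absurd (h1.symm.trans h3) hne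
  refine ⟨_, hL, ?_, ?_, ?_⟩
  · intro a t ht0 ht
    change t < (L0 a).len at ht
    change (L0 a).f t ∈ C
    obtain ⟨-, -, hj3, hj4⟩ := hL0.1 a
    have hA : (L0 a).f t ∉ A := fun h => by
      have := hj3 t ht.le h
      omega
    have hB : (L0 a).f t ∉ B := fun h => by
      have := hj4 t ht.le h
      omega
    have e1 := hDH ((L0 a).adj t ht)
    have e2 : (K ⊔ H).Adj ((L0 a).f t) ((L0 a).f (t - 1)) := by
      have h := (L0 a).adj (t - 1) (by omega)
      rw [Nat.sub_add_cancel ht0] at h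
      exact (hDH h).symm
    have hne' : (L0 a).f (t + 1) ≠ (L0 a).f (t - 1) := fun h => by
      have := (L0 a).inj (t + 1) ht (t - 1) (by omega) h
      omega
    rw [SimpleGraph.sup_adj] at e1 e2
    rcases e1 with e1 | e1
    · rcases e2 with e2 | e2
      · exact hKv _ _ _ e1 e2 hne'
      · exact hHv _ _ e2 hA hB
    · exact hHv _ _ e1 hA hB
  · intro a v hv
    obtain ⟨i, hi, hv⟩ := hv
    change i ≤ (L0 a).len at hi
    change (L0 a).f i = v at hv
    have hlen : 0 < (L0 a).len := by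
      rcases Nat.eq_zero_or_pos (L0 a).len with h0 | h0
      · obtain ⟨hj1, hj2, -, -⟩ := hL0.1 a
        rw [h0] at hj2
        exact absurd hj2 (Set.disjoint_left.mp hAB hj1)
      · exact h0
    have hw : ∃ w, (K ⊔ H).Adj v w := by
      rcases Nat.lt_or_ge i (L0 a).len with h | h
      · exact ⟨_, hv ▸ hDH ((L0 a).adj i h)⟩
      · have h1 : (L0 a).len = (i - 1) + 1 := by omega
        have h2 := hDH ((L0 a).adj (i - 1) (by omega))
        have h3 : i - 1 + 1 = i := by omega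
        rw [h3, hv] at h2
        exact ⟨_, h2.symm⟩
    obtain ⟨w, hw⟩ := hw
    rw [SimpleGraph.sup_adj, hKadj, hHadj] at hw
    rcases hw with ⟨x, j, hj, h⟩ | ⟨x, j, hj, h⟩
    · left
      refine Set.mem_iUnion.mpr ⟨x, ?_⟩
      rcases h with h | h
      · exact ⟨j, hj.le, h.1⟩
      · exact ⟨j + 1, hj, h.2⟩
    · right
      refine Set.mem_iUnion.mpr ⟨x, ?_⟩
      rcases h with h | h
      · exact ⟨j, hj.le, h.1⟩
      · exact ⟨j + 1, hj, h.2⟩
  · intro a t ht hQ hlink
    change t < (L0 a).len at ht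
    change ∀ x, ¬ (Q x).EdgeOf ((L0 a).f t) ((L0 a).f (t + 1)) at hQ
    have hle : (⨆ x, (Q x).graph) ⊔ (⨆ a, (lift (L0 a) fun i hi => hDG ((L0 a).adj i hi)).graph)
        ≤ D := by
      refine sup_le (hK ▸ hKD) (iSup_le fun b => ?_)
      intro u v h
      obtain ⟨i, hi, h | h⟩ := h
      · rw [← h.1, ← h.2]; exact (L0 b).adj i hi
      · rw [← h.1, ← h.2]; exact ((L0 b).adj i hi).symm
    have hD' : D ≤ D.deleteEdges {s((L0 a).f t, (L0 a).f (t + 1))} := by
      refine hmin ⟨?_, (SimpleGraph.deleteEdges_le _).trans hDH,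
        linked_mono (SimpleGraph.deleteEdges_mono hle) hlink⟩ (SimpleGraph.deleteEdges_le _)
      intro u v h
      rw [SimpleGraph.deleteEdges_adj]
      refine ⟨hKD h, ?_⟩
      rw [Set.mem_singleton_iff]
      intro he
      rw [Sym2.eq_iff] at he
      rcases he with ⟨h1, h2⟩ | ⟨h1, h2⟩
      · rw [h1, h2, hKadj] at h
        obtain ⟨x, hx⟩ := h
        exact hQ x hx
      · rw [h1, h2] at h
        have h := h.symm
        rw [hKadj] at h
        obtain ⟨x, hx⟩ := h
        exact hQ x hx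
    have := hD' ((L0 a).adj t ht)
    rw [SimpleGraph.deleteEdges_adj] at this
    exact this.2 rfl

end Vale.Agent.P235.H156
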